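import Mathlib

/-! Row H: a finitely generated virtually abelian group is virtually free abelian of finite rank. -/

namespace Vale.Agent.P246.R2.H205

theorem rowH (G : Type) [Group G] (hG : Group.FG G)
    (hN : ∃ N : Subgroup G, N.FiniteIndex ∧ ∀ a ∈ N, ∀ b ∈ N, a * b = b * a) :
    ∃ (h : ℕ) (N : Subgroup G), N.FiniteIndex ∧ Nonempty (N ≃* Multiplicative (Fin h → ℤ)) := by
  obtain ⟨N, hfi, hc⟩ := hN
  let _ : CommGroup N :=
    { (inferInstance : Group N) with
      mul_comm := fun a b => Subtype.ext (hc a a.2 b b.2) }
  have : Group.FG N := Subgroup.fg_of_index_ne_zero N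
  obtain ⟨ι, j, _, _, p, hp, e, ⟨f⟩⟩ := CommGroup.equiv_free_prod_prod_multiplicative_zmod N
  have : ∀ i, NeZero (p i ^ e i) := fun i => ⟨pow_ne_zero _ (hp i).ne_zero⟩
  have : ∀ i, Finite (Multiplicative (ZMod (p i ^ e i))) := fun i =>
    inferInstanceAs (Finite (ZMod (p i ^ e i)))
  let φ : N →* ((i : ι) → Multiplicative (ZMod (p i ^ e i))) :=
    (MonoidHom.snd _ _).comp f.toMonoidHom
  have hK : φ.ker.FiniteIndex := inferInstance
  refine ⟨Fintype.card j, φ.ker.map N.subtype, ?_, ?_⟩
  · refine ⟨?_⟩
    rw [Subgroup.index_map_subtype]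
    exact mul_ne_zero hK.index_ne_zero hfi.index_ne_zero
  · let e1 : φ.ker ≃* (j → Multiplicative ℤ) :=
      { toFun := fun x => (f x.1).1
        invFun := fun y => ⟨f.symm (y, 1), by
          rw [MonoidHom.mem_ker]
          change (f (f.symm (y, 1))).2 = 1
          rw [MulEquiv.apply_symm_apply]⟩
        left_inv := fun x => by
          apply Subtype.ext
          apply f.injective
          rw [MulEquiv.apply_symm_apply]
          have h1 : (f x.1).2 = 1 := x.2
          rw [← h1]
        right_inv := fun y => by
          change (f (f.symm (y, 1))).1 = y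
          rw [MulEquiv.apply_symm_apply]
        map_mul' := fun x y => by
          simp }
    let e2 : (j → Multiplicative ℤ) ≃* Multiplicative (Fin (Fintype.card j) → ℤ) :=
      { toFun := fun x => Multiplicative.ofAdd fun i =>
          Multiplicative.toAdd (x ((Fintype.equivFin j).symm i))
        invFun := fun y i => Multiplicative.ofAdd (Multiplicative.toAdd y (Fintype.equivFin j i))
        left_inv := fun x => by
          funext i
          simp
        right_inv := fun y => by
          simp
        map_mul' := fun x y => by
          rfl }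
    exact ⟨(φ.ker.equivMapOfInjective N.subtype N.subtype_injective).symm.trans (e1.trans e2)⟩

end Vale.Agent.P246.R2.H205
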